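import Vale.Agent.Lib.P074.Counter

/-!
# P074 — exponents above `1/3` are not admissible (the conjecture `α = 1/2` is false)

`Admissible d α` is the definition of the problem file.  For every `d ≥ 2` and every `α > 1/3` it
fails, already for the cube `K = [-1,1]^d` and `Y` the closed unit ball: the gradient maps `S_±` of
`max(|x_0|/2, ± s x_1 + s)` are optimal, differ by at least `1/2` on a set of mass `s/8`, while
`W_2(S_+ # ρ, S_- # ρ) ≤ 4 s^{3/2}` (three atoms; the light middle atom is moved by `2 s`).
The same example shows that with `W_1` in place of `W_2` no exponent above `1/4` works.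
-/

open MeasureTheory Set Metric
open scoped InnerProductSpace ENNReal

namespace Vale.Agent.Results.P074.UpperThird

open Vale.Agent.Lib.P074

theorem result (d : ℕ) (hd : 2 ≤ d) :
    (∀ α : ℝ, 1 / 3 < α → ¬ Admissible d α) ∧
    (∀ α : ℝ, 1 / 4 < α →
      ¬ ∀ K : Set (E d), IsCompact K → Convex ℝ K → (interior K).Nonempty →
        ∀ Y : Set (E d), IsCompact Y → Y.Nonempty →
          ∃ C : ℝ, ∀ μ ν : Measure (E d), IsProbabilityMeasure μ → IsProbabilityMeasure ν →
            μ Yᶜ = 0 → ν Yᶜ = 0 →
            ∀ T S : E d → E d, IsOTMap (unif K) μ T → IsOTMap (unif K) ν S →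
              L2dist (unif K) T S ≤ C * W 1 μ ν ^ α) := by
  refine ⟨fun α hα => not_admissible d hd α hα, fun α hα h => ?_⟩
  exact not_W1_exponent d hd α hα
    (h (cube d) cube_isCompact cube_convex cube_interior_nonempty
      (closedBall 0 1) (isCompact_closedBall 0 1) ⟨0, by simp⟩)

end Vale.Agent.Results.P074.UpperThird
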