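import Vale.Agent.Results.P074.AdmissibleQuarter
import Vale.Agent.Results.P074.UpperThird

/-!
# P074 — `1/4 ≤ α*_d ≤ 1/3`: the conjecture `α = 1/2` is false, and `α = 1/4` is admissible

`Admissible d α` is the definition of the problem file (Monge-optimal maps from the uniform measure
on a convex body, targets in a compact set, `W_2` defined by couplings).  For every `d ≥ 2`:

* `α = 1/4` is admissible;
* no `α > 1/3` is admissible, in particular `α = 1/2` is not;
* hence `1/4 ≤ α*_d ≤ 1/3`, where `α*_d` is the supremum of the admissible exponents in `(0,1]`;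
* if `W_2` is replaced by `W_1`, the exponent `1/4` works and no larger exponent does.
-/

open MeasureTheory Set Metric
open scoped InnerProductSpace ENNReal

namespace Vale.Agent.Results.P074.AExponentBounds

open Vale.Agent.Lib.P074

/-- `α*_d`: the supremum of the admissible exponents `α ∈ (0,1]`. -/
noncomputable def alphaStar (d : ℕ) : ℝ := sSup {α : ℝ | 0 < α ∧ α ≤ 1 ∧ Admissible d α}

/-- Admissibility of the exponent `α` with `W_1` in place of `W_2`. -/
def AdmissibleW1 (d : ℕ) (α : ℝ) : Prop :=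
  ∀ K : Set (E d), IsCompact K → Convex ℝ K → (interior K).Nonempty →
    ∀ Y : Set (E d), IsCompact Y → Y.Nonempty →
      ∃ C : ℝ, ∀ μ ν : Measure (E d), IsProbabilityMeasure μ → IsProbabilityMeasure ν →
        μ Yᶜ = 0 → ν Yᶜ = 0 →
        ∀ T S : E d → E d, IsOTMap (unif K) μ T → IsOTMap (unif K) ν S →
          L2dist (unif K) T S ≤ C * W 1 μ ν ^ α

theorem result (d : ℕ) (hd : 2 ≤ d) :
    Admissible d (1 / 4) ∧ (∀ α : ℝ, 1 / 3 < α → ¬ Admissible d α) ∧ ¬ Admissible d (1 / 2) ∧
    1 / 4 ≤ alphaStar d ∧ alphaStar d ≤ 1 / 3 ∧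
    AdmissibleW1 d (1 / 4) ∧ (∀ α : ℝ, 1 / 4 < α → ¬ AdmissibleW1 d α) := by
  have h1 := Vale.Agent.Results.P074.AdmissibleQuarter.result d
  have h2 := Vale.Agent.Results.P074.UpperThird.result d hd
  have hmem : (1 / 4 : ℝ) ∈ {α : ℝ | 0 < α ∧ α ≤ 1 ∧ Admissible d α} :=
    ⟨by norm_num, by norm_num, h1.1⟩
  refine ⟨h1.1, h2.1, h2.1 _ (by norm_num), ?_, ?_, h1.2, h2.2⟩
  · exact le_csSup ⟨1, fun α hα => hα.2.1⟩ hmem
  · refine csSup_le ⟨_, hmem⟩ fun α hα => ?_
    by_contra hcon
    exact h2.1 α (not_le.1 hcon) hα.2.2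

end Vale.Agent.Results.P074.AExponentBounds
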