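import Vale.Agent.Lib.P074.Third.ChainC
import Vale.Agent.Results.P074.AExponentBounds

/-!
# P074 — `α*_2 = 1/3` (attained), and `1/4 ≤ α*_d ≤ 1/3` for every `d ≥ 2`

`Admissible d α` is the definition of the problem file (Monge-optimal maps from the uniform measure
on a convex body, targets in a compact set, `W_2` defined by couplings); `α*_d` is the supremum of the
admissible exponents in `(0,1]`.

* In dimension `d = 2`: `α = 1/3` is admissible, no `α > 1/3` is admissible, hence `α*_2 = 1/3` and the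
  supremum is attained.
* In every dimension `d ≥ 2`: `α = 1/4` is admissible, no `α > 1/3` is admissible (in particular
  `α = 1/2` is not), hence `1/4 ≤ α*_d ≤ 1/3`.
-/

open MeasureTheory Set Metric
open scoped InnerProductSpace ENNReal

namespace Vale.Agent.Results.P074.APlanarThird

open Vale.Agent.Lib.P074 Vale.Agent.Results.P074.AExponentBounds

theorem result :
    (Admissible 2 (1 / 3) ∧ (∀ α : ℝ, 1 / 3 < α → ¬ Admissible 2 α) ∧ alphaStar 2 = 1 / 3) ∧
    ∀ d : ℕ, 2 ≤ d →
      Admissible d (1 / 4) ∧ (∀ α : ℝ, 1 / 3 < α → ¬ Admissible d α) ∧ ¬ Admissible d (1 / 2) ∧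
      1 / 4 ≤ alphaStar d ∧ alphaStar d ≤ 1 / 3 := by
  have h1 := admissible_third
  have h2 := (Vale.Agent.Results.P074.AExponentBounds.result 2 le_rfl)
  refine ⟨⟨h1, h2.2.1, le_antisymm h2.2.2.2.2.1 ?_⟩, fun d hd => ?_⟩
  · exact le_csSup ⟨1, fun α hα => hα.2.1⟩ ⟨by norm_num, by norm_num, h1⟩
  · have h3 := Vale.Agent.Results.P074.AExponentBounds.result d hd
    exact ⟨h3.1, h3.2.1, h3.2.2.1, h3.2.2.2.1, h3.2.2.2.2.1⟩

end Vale.Agent.Results.P074.APlanarThird
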