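import Vale.Agent.Lib.P074.Wasserstein
import Vale.Agent.Lib.P074.Monge

/-!
# P074 — the exponent `α = 1/4` is admissible in every dimension

`Admissible d α` is the definition of the problem file: for every convex body `K` and every nonempty
compact `Y` there is `C` with `‖T_μ - T_ν‖_{L²(ρ)} ≤ C W_2(μ,ν)^α` for all `μ, ν ∈ P(Y)`, where
`T_μ`, `T_ν` are quadratic optimal transport maps (Monge minimisers) from the uniform measure `ρ`
on `K`.  We also prove the stronger bound with `W_1`.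
-/

open MeasureTheory Set Metric
open scoped InnerProductSpace ENNReal

namespace Vale.Agent.Results.P074.AdmissibleQuarter

open Vale.Agent.Lib.P074

theorem result (d : ℕ) :
    Admissible d (1 / 4) ∧
    ∀ K : Set (E d), IsCompact K → Convex ℝ K → (interior K).Nonempty →
      ∀ Y : Set (E d), IsCompact Y → Y.Nonempty →
        ∃ C : ℝ, ∀ μ ν : Measure (E d), IsProbabilityMeasure μ → IsProbabilityMeasure ν →
          μ Yᶜ = 0 → ν Yᶜ = 0 →
          ∀ T S : E d → E d, IsOTMap (unif K) μ T → IsOTMap (unif K) ν S →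
            L2dist (unif K) T S ≤ C * W 1 μ ν ^ (1 / 4 : ℝ) := by
  have key : ∀ K : Set (E d), IsCompact K → Convex ℝ K → (interior K).Nonempty →
      ∀ Y : Set (E d), IsCompact Y → Y.Nonempty →
        ∃ C : ℝ, ∀ μ ν : Measure (E d), IsProbabilityMeasure μ → IsProbabilityMeasure ν →
          μ Yᶜ = 0 → ν Yᶜ = 0 →
          ∀ T S : E d → E d, IsOTMap (unif K) μ T → IsOTMap (unif K) ν S →
            L2dist (unif K) T S ≤ C * W 1 μ ν ^ (1 / 4 : ℝ) ∧
            L2dist (unif K) T S ≤ C * W 2 μ ν ^ (1 / 4 : ℝ) := by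
    intro K hK hKc hKi Y hY _
    obtain ⟨r0, hr0⟩ := hK.isBounded.subset_closedBall (0 : E d)
    obtain ⟨R0, hR0⟩ := hY.isBounded.subset_closedBall (0 : E d)
    set r : ℝ := max r0 0 with hr
    set R : ℝ := max R0 1 with hR
    have hKr : K ⊆ closedBall 0 r := hr0.trans (closedBall_subset_closedBall (le_max_left _ _))
    have hYR : Y ⊆ closedBall 0 R := hR0.trans (closedBall_subset_closedBall (le_max_left _ _))
    have hRpos : 0 < R := lt_of_lt_of_le one_pos (le_max_right _ _)
    have hK0 : volume K ≠ 0 :=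
      ((isOpen_interior.measure_pos volume hKi).trans_le (measure_mono interior_subset)).ne'
    refine ⟨(32 * (d : ℝ) ^ 3 * R ^ 3 * (r + 1) *
      (volume (closedBall (0 : E d) (r + 2))).toReal / (volume K).toReal + 1) ^ (1 / 4 : ℝ),
      fun μ ν _ _ hμY hνY T S hT hS => ?_⟩
    obtain ⟨hTm, φ, -, hφ⟩ := isBrenierMap_of_isOTMap K hK hKc hKi Y hY μ hμY T hT
    obtain ⟨hSm, ψ, -, hψ⟩ := isBrenierMap_of_isOTMap K hK hKc hKi Y hY ν hνY S hS
    have hmem : ∀ (μ : Measure (E d)) (T : E d → E d), Measurable T → (unif K).map T = μ →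
        μ Yᶜ = 0 → ∀ᵐ x ∂(unif K), ‖T x‖ ≤ R := by
      intro μ T hTm hmap hμY
      rw [← hmap, Measure.map_apply hTm hY.isClosed.measurableSet.compl] at hμY
      have : ∀ᵐ x ∂(unif K), x ∉ T ⁻¹' Yᶜ := measure_eq_zero_iff_ae_notMem.1 hμY
      filter_upwards [this] with x hx
      have : T x ∈ Y := by
        by_contra hcon
        exact hx hcon
      exact mem_closedBall_zero_iff.1 (hYR this)
    have := stability_W K hK.measurableSet hK0 r (le_max_right _ _) hKr R hRpos T S hTm hSm φ ψ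
      (hmem μ T hTm hT.2.1 hμY) (hmem ν S hSm hS.2.1 hνY) hφ hψ
    rwa [hT.2.1, hS.2.1] at this
  constructor
  · intro K hK hKc hKi Y hY hYne
    obtain ⟨C, hC⟩ := key K hK hKc hKi Y hY hYne
    exact ⟨C, fun μ ν hμ hν hμY hνY T S hT hS => (hC μ ν hμ hν hμY hνY T S hT hS).2⟩
  · intro K hK hKc hKi Y hY hYne
    obtain ⟨C, hC⟩ := key K hK hKc hKi Y hY hYne
    exact ⟨C, fun μ ν hμ hν hμY hνY T S hT hS => (hC μ ν hμ hν hμY hνY T S hT hS).1⟩

end Vale.Agent.Results.P074.AdmissibleQuarter
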